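import Vale.Agent.P088.R2.H437.P2A

/-!
# P088, the change of variables `x = y / |y|²` in both slots, in weighted integrals
-/

open MeasureTheory Set Filter Topology
open scoped ContDiff Matrix

noncomputable section

namespace Vale.Agent.P088.S4.H561

open Vale.Agent.P088.LR Vale.Agent.P088.HY Vale.Agent.P088.HY.T3
open Vale.Agent.P088.HY.H437 Vale.Agent.P088.HY.H437.Kel

variable {n : ℕ}

/-- The inversion in both slots. -/
def iz (z : VV n) : VV n := (iv z.1, iv z.2)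

theorem iz_iz {z : VV n} (h1 : z.1 ≠ 0) (h2 : z.2 ≠ 0) : iz (iz z) = z := by
  show (iv (iv z.1), iv (iv z.2)) = z
  rw [iv_iv h1, iv_iv h2]

theorem iz_img (U U' : Set (V n)) : (iz '' (U ×ˢ U') : Set (VV n)) = (iv '' U) ×ˢ (iv '' U') :=
  prod_image_image_eq.symm

theorem iz_fd {z : VV n} (h1 : z.1 ≠ 0) (h2 : z.2 ≠ 0) :
    HasFDerivAt (iz : VV n → VV n)
      ((fderiv ℝ (iv : V n → V n) z.1).prodMap (fderiv ℝ (iv : V n → V n) z.2)) z :=
  HasFDerivAt.prodMap z (da_iv h1).hasFDerivAt (da_iv h2).hasFDerivAt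

theorem iz_cont {z : VV n} (h1 : z.1 ≠ 0) (h2 : z.2 ≠ 0) : ContinuousAt (iz : VV n → VV n) z :=
  (iz_fd h1 h2).continuousAt

theorem iz_inj {U U' : Set (V n)} (h0 : ∀ y ∈ U, y ≠ 0) (h0' : ∀ y ∈ U', y ≠ 0) :
    InjOn (iz : VV n → VV n) (U ×ˢ U') := by
  intro x hx y hy hxy
  rw [← iz_iz (h0 _ hx.1) (h0' _ hx.2), hxy, iz_iz (h0 _ hy.1) (h0' _ hy.2)]

theorem det_pm (A B : V n →L[ℝ] V n) : (A.prodMap B).det = A.det * B.det := by
  have h := LinearMap.det_prodMap (A : V n →ₗ[ℝ] V n) (B : V n →ₗ[ℝ] V n)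
  exact h

/-- **Change of variables in both slots, one-sided.** -/
theorem cov2 {U U' : Set (V n)} (hU : IsOpen U) (hU' : IsOpen U') (h0 : ∀ y ∈ U, y ≠ 0)
    (h0' : ∀ y ∈ U', y ≠ 0) {r : ℝ} (hr : ∀ y ∈ U, (HY.sq y)⁻¹ ≤ r)
    (hr' : ∀ y ∈ U', (HY.sq y)⁻¹ ≤ r) {g h : VV n → ℝ}
    (hg : ContinuousOn g ((iv '' U) ×ˢ (iv '' U'))) (hg0 : ∀ z ∈ U ×ˢ U', 0 ≤ g (iz z))
    (hh : IntegrableOn h (U ×ˢ U')) {A : ℝ} (hA : ∀ z ∈ U ×ˢ U', g (iz z) ≤ A * h z) :
    IntegrableOn g ((iv '' U) ×ˢ (iv '' U')) ∧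
      ∫ z in (iv '' U) ×ˢ (iv '' U'), g z ≤
        ((n.factorial : ℝ) * (3 * r) ^ n) ^ 2 * A * ∫ z in U ×ˢ U', h z := by
  obtain ⟨J, hJ⟩ : ∃ J : ℝ, J = (n.factorial : ℝ) * (3 * r) ^ n := ⟨_, rfl⟩
  rw [← hJ]
  have hUU : IsOpen (U ×ˢ U') := hU.prod hU'
  have hd : ∀ z ∈ U ×ˢ U', HasFDerivWithinAt (iz : VV n → VV n)
      ((fderiv ℝ (iv : V n → V n) z.1).prodMap (fderiv ℝ (iv : V n → V n) z.2)) (U ×ˢ U') z :=
    fun z hz => (iz_fd (h0 _ hz.1) (h0' _ hz.2)).hasFDerivWithinAt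
  have hi := iz_inj h0 h0'
  have hc : ContinuousOn (fun z : VV n => |((fderiv ℝ (iv : V n → V n) z.1).prodMap
      (fderiv ℝ (iv : V n → V n) z.2)).det| • g (iz z)) (U ×ˢ U') := by
    have hiz : ContinuousOn (iz : VV n → VV n) (U ×ˢ U') := fun z hz =>
      (iz_cont (h0 _ hz.1) (h0' _ hz.2)).continuousWithinAt
    have hgi : ContinuousOn (fun z => g (iz z)) (U ×ˢ U') := by
      refine hg.comp hiz ?_
      rw [← iz_img]
      exact mapsTo_image _ _
    have h1 : ContinuousOn (fun z : VV n => |((fderiv ℝ (iv : V n → V n) z.1).prodMap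
        (fderiv ℝ (iv : V n → V n) z.2)).det|) (U ×ˢ U') := by
      simp only [det_pm]
      exact (((cont_det h0).comp continuousOn_fst fun z hz => hz.1).mul
        ((cont_det h0').comp continuousOn_snd fun z hz => hz.2)).abs
    exact h1.smul hgi
  have hb : ∀ z ∈ U ×ˢ U', |((fderiv ℝ (iv : V n → V n) z.1).prodMap
      (fderiv ℝ (iv : V n → V n) z.2)).det| • g (iz z) ≤ J ^ 2 * A * h z := by
    intro z hz
    have h1 := det_iv (h0 _ hz.1) (hr _ hz.1)
    have h2 := det_iv (h0' _ hz.2) (hr' _ hz.2)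
    rw [← hJ] at h1 h2
    have h3 : |((fderiv ℝ (iv : V n → V n) z.1).prodMap
        (fderiv ℝ (iv : V n → V n) z.2)).det| ≤ J ^ 2 := by
      rw [det_pm, abs_mul, sq J]
      exact mul_le_mul h1 h2 (abs_nonneg _) ((abs_nonneg _).trans h1)
    rw [smul_eq_mul, mul_assoc (J ^ 2)]
    exact mul_le_mul h3 (hA z hz) (hg0 z hz) (_root_.sq_nonneg J)
  have hi2 : IntegrableOn (fun z : VV n => |((fderiv ℝ (iv : V n → V n) z.1).prodMap
      (fderiv ℝ (iv : V n → V n) z.2)).det| • g (iz z)) (U ×ˢ U') := by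
    refine Integrable.mono' (hh.const_mul (J ^ 2 * A))
      (hc.aestronglyMeasurable hUU.measurableSet) ?_
    filter_upwards [ae_restrict_mem hUU.measurableSet] with z hz
    rw [Real.norm_eq_abs, abs_of_nonneg]
    · exact hb z hz
    · rw [smul_eq_mul]
      exact mul_nonneg (abs_nonneg _) (hg0 z hz)
  rw [← iz_img]
  have inst : (volume : Measure (VV n)).IsAddHaarMeasure :=
    Measure.prod.instIsAddHaarMeasure (volume : Measure (V n)) (volume : Measure (V n))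
  constructor
  · exact (integrableOn_image_iff_integrableOn_abs_det_fderiv_smul volume hUU.measurableSet hd
      hi g).2 hi2
  · rw [integral_image_eq_integral_abs_det_fderiv_smul volume hUU.measurableSet hd hi g,
      ← integral_const_mul]
    exact setIntegral_mono_on hi2 (hh.const_mul _) hUU.measurableSet hb

end Vale.Agent.P088.S4.H561
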